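import Vale.Agent.Lib.P121.Main

open MeasureTheory Vale.Agent.Lib.P121

/-- There is an absolutely continuous Borel probability measure `μ` on `ℝ³` with finite
three marginal Coulomb Kantorovich value and no optimal Monge plan. -/
theorem Vale.Agent.Results.P121.NoMonge.result :
    ∃ μ : Measure E3, IsProbabilityMeasure μ ∧ μ ≪ volume ∧
      kantorovich μ < ⊤ ∧ ¬ HasOptimalMongePlan μ :=
  main_thm
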